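import Vale.Agent.P329.Ring

/-!
# Clocks: letters of `A` advance a clock modulo `n`; counting neutral letters at phase `0`
-/

namespace GSH329

open Classical

variable {α : Type}

/-- number of returns to the state `0` (after reading a letter not in `X`), started in state `s` -/
noncomputable def cc (A X : Set α) (n : ℕ) : ℕ → List α → ℕ
  | _, [] => 0
  | s, y :: w =>
    if y ∈ A then (if s + 1 = n then 1 + cc A X n 0 w else cc A X n (s + 1) w)
    else (if s = 0 ∧ y ∉ X then 1 + cc A X n 0 w else cc A X n s w)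

/-- words with exactly one clock letter, at the end -/
def UU (A : Set α) : Set (List α) := cat (wordsIn Aᶜ) (letters A)

/-- the star-free code whose blocks are counted by `cc` -/
def KK (A X : Set α) (n : ℕ) : Set (List α) :=
  cat (wordsIn X) (letters (Aᶜ \ X) ∪ cat (letters A) (pw (UU A) (n - 1)))

theorem heightLE_UU [Finite α] (A : Set α) : HeightLE 0 (UU A) :=
  (heightLE_wordsIn 0 _).cat (heightLE_letters 0 _)

theorem heightLE_KK [Finite α] (A X : Set α) (n : ℕ) : HeightLE 0 (KK A X n) :=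
  (heightLE_wordsIn 0 _).cat
    ((heightLE_letters 0 _).union ((heightLE_letters 0 _).cat ((heightLE_UU A).pw _)))

theorem cc_U (A X : Set α) (n s : ℕ) (hs : s ≠ 0) {u : List α} (hu : u ∈ UU A) (w : List α) :
    cc A X n s (u ++ w) = if s + 1 = n then 1 + cc A X n 0 w else cc A X n (s + 1) w := by
  obtain ⟨b, hb, _, ⟨a, ha, rfl⟩, rfl⟩ := hu
  induction b with
  | nil => simp [cc, ha]
  | cons y b ih =>
    have hy : y ∉ A := hb y (by simp)
    have := ih (fun z hz => hb z (by simp [hz]))
    simp only [List.cons_append, cc, hy, if_false, hs, false_and]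
    exact this

theorem cc_Upw (A X : Set α) (n : ℕ) : ∀ (i s : ℕ), s ≠ 0 → s + (i + 1) = n →
    ∀ {u : List α}, u ∈ pw (UU A) (i + 1) → ∀ w, cc A X n s (u ++ w) = 1 + cc A X n 0 w := by
  intro i
  induction i with
  | zero =>
    intro s hs hn u hu w
    obtain ⟨u1, hu1, u2, hu2, rfl⟩ := hu
    have : u2 = [] := by simpa [pw] using hu2
    subst this
    rw [List.append_nil, cc_U A X n s hs hu1, if_pos (by omega)]
  | succ i ih =>
    intro s hs hn u hu w
    obtain ⟨u1, hu1, u2, hu2, rfl⟩ := hu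
    rw [List.append_assoc, cc_U A X n s hs hu1, if_neg (by omega)]
    exact ih (s + 1) (by omega) (by omega) hu2 w

theorem cc_h1 (A X : Set α) (hX : X ⊆ Aᶜ) (n : ℕ) (hn : 0 < n) (k : List α)
    (hk : k ∈ KK A X n) (w : List α) : cc A X n 0 (k ++ w) = cc A X n 0 w + 1 := by
  obtain ⟨x, hx, y, hy, rfl⟩ := hk
  have hxs : ∀ v, cc A X n 0 (x ++ v) = cc A X n 0 v := by
    intro v
    induction x with
    | nil => rfl
    | cons a x ih =>
      have ha : a ∈ X := hx a (by simp)
      have ha' : a ∉ A := hX ha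
      simp only [List.cons_append, cc, ha', if_false, ha, not_true_eq_false, and_false]
      exact ih (fun z hz => hx z (by simp [hz]))
  rw [List.append_assoc, hxs]
  rcases hy with ⟨a, ⟨ha, hax⟩, rfl⟩ | ⟨_, ⟨a, ha, rfl⟩, u, hu, rfl⟩
  · have ha' : a ∉ A := ha
    simp [cc, ha', hax, add_comm]
  · simp only [List.cons_append, List.nil_append, cc, ha, if_true]
    by_cases h1 : 0 + 1 = n
    · have hu' : u = [] := by
        have : n - 1 = 0 := by omega
        rw [this] at hu
        simpa [pw] using hu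
      rw [if_pos h1, hu']
      simp [add_comm]
    · rw [if_neg h1]
      obtain ⟨i, hi⟩ : ∃ i, n - 1 = i + 1 := ⟨n - 2, by omega⟩
      rw [hi] at hu
      rw [cc_Upw A X n i (0 + 1) (by omega) (by omega) hu, add_comm]

theorem cc_U_exists (A X : Set α) (n : ℕ) : ∀ (w : List α) (s i : ℕ), s ≠ 0 → s + i = n → 0 < i →
    cc A X n s w ≠ 0 → ∃ u ∈ pw (UU A) i, ∃ v, u ++ v = w := by
  intro w
  induction w with
  | nil => intro s i _ _ _ h; simp [cc] at h
  | cons y w ih =>
    intro s i hs hn hi h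
    by_cases hy : y ∈ A
    · have hyU : [y] ∈ UU A := ⟨[], by simp [wordsIn], [y], ⟨y, hy, rfl⟩, rfl⟩
      by_cases h1 : s + 1 = n
      · refine ⟨[y], ?_, w, rfl⟩
        have : i = 0 + 1 := by omega
        subst this
        exact ⟨[y], hyU, [], rfl, rfl⟩
      · simp only [cc, hy, if_true, if_neg h1] at h
        obtain ⟨u, hu, v, rfl⟩ := ih (s + 1) (i - 1) (by omega) (by omega) (by omega) h
        refine ⟨[y] ++ u, ?_, v, by simp⟩
        obtain ⟨j, rfl⟩ : ∃ j, i = j + 1 := ⟨i - 1, by omega⟩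
        exact ⟨[y], hyU, u, by simpa using hu, rfl⟩
    · simp only [cc, hy, if_false, hs, false_and] at h
      obtain ⟨u, hu, v, rfl⟩ := ih s i hs hn hi h
      obtain ⟨j, rfl⟩ : ∃ j, i = j + 1 := ⟨i - 1, by omega⟩
      obtain ⟨u1, ⟨b, hb, c, hc, rfl⟩, u2, hu2, rfl⟩ := hu
      refine ⟨y :: ((b ++ c) ++ u2), ⟨y :: (b ++ c), ⟨y :: b, ?_, c, hc, rfl⟩, u2, hu2, rfl⟩,
        v, rfl⟩
      intro z hz
      rcases List.mem_cons.1 hz with rfl | hz
      · exact hy
      · exact hb z hz

theorem cc_h2 (A X : Set α) (n : ℕ) (hn : 0 < n) (w : List α)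
    (h : ∀ k ∈ KK A X n, ∀ v, k ++ v ≠ w) : cc A X n 0 w = 0 := by
  by_contra hc
  have : ∃ k ∈ KK A X n, ∃ v, k ++ v = w := by
    clear h
    induction w with
    | nil => simp [cc] at hc
    | cons y w ih =>
      by_cases hy : y ∈ A
      · by_cases h1 : 0 + 1 = n
        · refine ⟨[y], ⟨[], by simp [wordsIn], [y], Or.inr ⟨[y], ⟨y, hy, rfl⟩, [], ?_, rfl⟩, rfl⟩,
            w, rfl⟩
          have : n - 1 = 0 := by omega
          rw [this]; rfl
        · simp only [cc, hy, if_true, if_neg h1] at hc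
          obtain ⟨u, hu, v, rfl⟩ := cc_U_exists A X n w (0 + 1) (n - 1) (by omega) (by omega)
            (by omega) hc
          exact ⟨y :: u, ⟨[], by simp [wordsIn], y :: u,
            Or.inr ⟨[y], ⟨y, hy, rfl⟩, u, hu, rfl⟩, rfl⟩, v, rfl⟩
      · by_cases hX : y ∈ X
        · simp only [cc, hy, if_false, hX, not_true_eq_false, and_false] at hc
          obtain ⟨k, ⟨x, hx, z, hz, rfl⟩, v, rfl⟩ := ih hc
          refine ⟨y :: (x ++ z), ⟨y :: x, ?_, z, hz, rfl⟩, v, rfl⟩
          intro t ht
          rcases List.mem_cons.1 ht with rfl | ht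
          · exact hX
          · exact hx t ht
        · exact ⟨[y], ⟨[], by simp [wordsIn], [y], Or.inl ⟨y, ⟨hy, hX⟩, rfl⟩, rfl⟩, w, rfl⟩
  obtain ⟨k, hk, v, hv⟩ := this
  exact h k hk v hv

theorem Fn_cc_zero [Finite α] (A X : Set α) (hX : X ⊆ Aᶜ) (n : ℕ) (hn : 0 < n) :
    Fn (fun w => (cc A X n 0 w : ℤ)) :=
  Fn.of_nat fun m hm r =>
    count_lemma (heightLE_KK A X n) _ (fun k hk w => cc_h1 A X hX n hn k hk w)
      (fun w h => cc_h2 A X n hn w h) m hm r

theorem cc_wordsIn (A X : Set α) (n s : ℕ) (hs : s ≠ 0) {w : List α} (hw : w ∈ wordsIn Aᶜ) :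
    cc A X n s w = 0 := by
  induction w with
  | nil => rfl
  | cons y w ih =>
    have hy : y ∉ A := hw y (by simp)
    simp only [cc, hy, if_false, hs, false_and]
    exact ih (fun z hz => hw z (by simp [hz]))

theorem exists_U (A : Set α) {w : List α} (hw : w ∉ wordsIn Aᶜ) : ∃ u ∈ UU A, ∃ v, u ++ v = w := by
  induction w with
  | nil => exact absurd (by simp [wordsIn]) hw
  | cons y w ih =>
    by_cases hy : y ∈ A
    · exact ⟨[y], ⟨[], by simp [wordsIn], [y], ⟨y, hy, rfl⟩, rfl⟩, w, rfl⟩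
    · have hw' : w ∉ wordsIn Aᶜ := by
        intro h
        apply hw
        intro z hz
        rcases List.mem_cons.1 hz with rfl | hz
        · exact hy
        · exact h z hz
      obtain ⟨_, ⟨b, hb, c, hc, rfl⟩, v, rfl⟩ := ih hw'
      refine ⟨y :: (b ++ c), ⟨y :: b, ?_, c, hc, rfl⟩, v, rfl⟩
      intro z hz
      rcases List.mem_cons.1 hz with rfl | hz
      · exact hy
      · exact hb z hz

/-- step of the downward induction on the state -/
theorem Fn_step [Finite α] (A X : Set α) (n s : ℕ) (hs : s ≠ 0) (g : List α → ℤ) (hg : Fn g)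
    (h : ∀ u ∈ UU A, ∀ w, (cc A X n s (u ++ w) : ℤ) = g w) :
    Fn (fun w => (cc A X n s w : ℤ)) := by
  intro m hm r
  have hset : {w : List α | (m : ℤ) ∣ (cc A X n s w : ℤ) - r} =
      cat (UU A) {w | (m : ℤ) ∣ g w - r} ∪ (if (m : ℤ) ∣ (0 : ℤ) - r then wordsIn Aᶜ else ∅) := by
    ext w
    constructor
    · intro hw
      by_cases hb : w ∈ wordsIn Aᶜ
      · right
        have h0 := cc_wordsIn A X n s hs hb
        have hw' : (m : ℤ) ∣ (cc A X n s w : ℤ) - r := hw
        rw [h0] at hw'
        rw [if_pos (by simpa using hw')]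
        exact hb
      · left
        obtain ⟨u, hu, v, rfl⟩ := exists_U A hb
        refine ⟨u, hu, v, ?_, rfl⟩
        have hw' : (m : ℤ) ∣ (cc A X n s (u ++ v) : ℤ) - r := hw
        rw [h u hu v] at hw'
        exact hw'
    · rintro (⟨u, hu, v, hv, rfl⟩ | hw)
      · change (m : ℤ) ∣ (cc A X n s (u ++ v) : ℤ) - r
        rw [h u hu v]
        exact hv
      · by_cases hr : (m : ℤ) ∣ (0 : ℤ) - r
        · rw [if_pos hr] at hw
          change (m : ℤ) ∣ (cc A X n s w : ℤ) - r
          rw [cc_wordsIn A X n s hs hw]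
          simpa using hr
        · rw [if_neg hr] at hw
          exact hw.elim
  rw [hset]
  refine (((heightLE_UU A).mono (by norm_num)).cat (hg m hm r)).union ?_
  split_ifs
  · exact heightLE_wordsIn 1 _
  · exact heightLE_empty 1

theorem Fn_cc [Finite α] (A X : Set α) (hX : X ⊆ Aᶜ) (n s : ℕ) (hs : s < n) :
    Fn (fun w => (cc A X n s w : ℤ)) := by
  have hn : 0 < n := by omega
  by_cases h0 : s = 0
  · subst h0; exact Fn_cc_zero A X hX n hn
  obtain ⟨i, hi⟩ : ∃ i, s + (i + 1) = n := ⟨n - s - 1, by omega⟩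
  induction i generalizing s with
  | zero =>
    refine Fn_step A X n s h0 (fun w => 1 + (cc A X n 0 w : ℤ))
      ((Fn.const 1).add (Fn_cc_zero A X hX n hn)) ?_
    intro u hu w
    rw [cc_U A X n s h0 hu, if_pos (by omega)]
    push_cast; rfl
  | succ i ih =>
    refine Fn_step A X n s h0 (fun w => (cc A X n (s + 1) w : ℤ))
      (ih (s + 1) (by omega) (by omega) (by omega)) ?_
    intro u hu w
    rw [cc_U A X n s h0 hu, if_neg (by omega)]

/-- number of occurrences of the letter `x` at phase `0`, started in state `s` -/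
noncomputable def nn (A : Set α) (x : α) (n : ℕ) : ℕ → List α → ℕ
  | _, [] => 0
  | s, y :: w => (if y = x ∧ s = 0 then 1 else 0) +
      nn A x n (if y ∈ A then (if s + 1 = n then 0 else s + 1) else s) w

theorem cc_eq_nn (A : Set α) (x : α) (hx : x ∉ A) (n : ℕ) (w : List α) (s : ℕ) :
    cc A ∅ n s w = cc A {x} n s w + nn A x n s w := by
  induction w generalizing s with
  | nil => rfl
  | cons y w ih =>
    by_cases hy : y ∈ A
    · have hyx : y ≠ x := fun h => hx (h ▸ hy)
      by_cases h1 : s + 1 = n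
      · simp only [cc, nn, hy, if_true, h1, hyx, false_and, if_false]
        rw [ih 0]; ring
      · simp only [cc, nn, hy, if_true, h1, hyx, false_and, if_false]
        rw [ih (s + 1)]; ring
    · by_cases hs : s = 0
      · subst hs
        by_cases hyx : y = x
        · subst hyx
          simp [cc, nn, hy, ih 0]; ring
        · simp [cc, nn, hy, hyx, ih 0]; ring
      · simp [cc, nn, hy, hs, ih s]

theorem Fn_nn [Finite α] (A : Set α) (x : α) (hx : x ∉ A) (n s : ℕ) (hs : s < n) :
    Fn (fun w => (nn A x n s w : ℤ)) := by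
  have h1 := (Fn_cc A ∅ (by simp) n s hs).sub (Fn_cc A {x} (by simpa using hx) n s hs)
  have h2 : (fun w : List α => (nn A x n s w : ℤ)) =
      fun w => (cc A ∅ n s w : ℤ) - (cc A {x} n s w : ℤ) := by
    funext w
    rw [cc_eq_nn A x hx n w s]
    push_cast; ring
  rw [h2]; exact h1

end GSH329
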