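import Vale.Agent.P329.Defs

/-!
# Counting the blocks of a star-free code modulo `m`
-/

namespace GSH329

variable {α : Type}

theorem pw_split {K : Set (List α)} (a b : ℕ) {w : List α} (hw : w ∈ pw K (a + b)) :
    ∃ u ∈ pw K a, ∃ v ∈ pw K b, u ++ v = w := by
  induction a generalizing w with
  | zero => exact ⟨[], rfl, w, by simpa using hw, rfl⟩
  | succ a ih =>
    rw [show a + 1 + b = (a + b) + 1 by ring] at hw
    obtain ⟨u, hu, v, hv, rfl⟩ := hw
    obtain ⟨s, hs, t, ht, rfl⟩ := ih hv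
    exact ⟨u ++ s, ⟨u, hu, s, hs, rfl⟩, t, ht, by simp⟩

theorem pw_mul_sub {K : Set (List α)} (m q : ℕ) {w : List α} (hw : w ∈ pw K (m * q)) :
    w ∈ kst (pw K m) := by
  induction q generalizing w with
  | zero =>
    have : w = [] := by simpa [pw] using hw
    exact ⟨[], by simp, by simp [this]⟩
  | succ q ih =>
    rw [show m * (q + 1) = m + m * q by ring] at hw
    obtain ⟨u, hu, v, hv, rfl⟩ := pw_split _ _ hw
    obtain ⟨l, hl, rfl⟩ := ih hv
    refine ⟨u :: l, ?_, by simp⟩
    intro x hx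
    rcases List.mem_cons.1 hx with rfl | hx
    · exact hu
    · exact hl x hx

theorem count_pw {K : Set (List α)} (c : List α → ℕ)
    (h1 : ∀ k ∈ K, ∀ w, c (k ++ w) = c w + 1) (n : ℕ) {u : List α} (hu : u ∈ pw K n)
    (v : List α) : c (u ++ v) = c v + n := by
  induction n generalizing u with
  | zero =>
    have : u = [] := by simpa [pw] using hu
    simp [this]
  | succ n ih =>
    obtain ⟨k, hk, s, hs, rfl⟩ := hu
    rw [List.append_assoc, h1 k hk, ih hs]
    ring

theorem count_kst {K : Set (List α)} (c : List α → ℕ)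
    (h1 : ∀ k ∈ K, ∀ w, c (k ++ w) = c w + 1) (m : ℕ) {u : List α} (hu : u ∈ kst (pw K m))
    (v : List α) : ∃ q, c (u ++ v) = c v + m * q := by
  obtain ⟨l, hl, rfl⟩ := hu
  induction l with
  | nil => exact ⟨0, by simp⟩
  | cons a l ih =>
    obtain ⟨q, hq⟩ := ih (fun x hx => hl x (by simp [hx]))
    refine ⟨q + 1, ?_⟩
    rw [List.flatten_cons, List.append_assoc, count_pw c h1 m (hl a (by simp)), hq]
    ring

/-- The number of blocks of a star-free code, counted modulo `m`, gives languages of height at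
most one. -/
theorem count_lemma {K : Set (List α)} (hK : HeightLE 0 K) (c : List α → ℕ)
    (h1 : ∀ k ∈ K, ∀ w, c (k ++ w) = c w + 1)
    (h2 : ∀ w, (∀ k ∈ K, ∀ v, k ++ v ≠ w) → c w = 0)
    (m : ℕ) (hm : 0 < m) (r : ℕ) : HeightLE 1 {w | c w % m = r} := by
  by_cases hr : r < m
  swap
  · have : {w | c w % m = r} = (∅ : Set (List α)) := by
      ext w
      simp only [Set.mem_setOf_eq, Set.mem_empty_iff_false, iff_false]
      exact fun h => hr (h ▸ Nat.mod_lt _ hm)
    rw [this]
    exact heightLE_empty 1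
  have key : ∀ n : ℕ, ∀ w : List α, c w = n →
      ∃ u ∈ pw K n, ∃ v, (∀ k ∈ K, ∀ t, k ++ t ≠ v) ∧ u ++ v = w := by
    intro n
    induction n with
    | zero =>
      intro w hw
      refine ⟨[], rfl, w, ?_, rfl⟩
      intro k hk t h
      have := h1 k hk t
      rw [h, hw] at this
      omega
    | succ n ih =>
      intro w hw
      by_cases hc : ∃ k ∈ K, ∃ v, k ++ v = w
      · obtain ⟨k, hk, v, rfl⟩ := hc
        have := h1 k hk v
        obtain ⟨u, hu, t, ht, rfl⟩ := ih v (by omega)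
        exact ⟨k ++ u, ⟨k, hk, u, hu, rfl⟩, t, ht, by simp⟩
      · have := h2 w (fun k hk v h => hc ⟨k, hk, v, h⟩)
        omega
  have hset : {w | c w % m = r} =
      cat (kst (pw K m)) (cat (pw K r) (cat K Set.univ)ᶜ) := by
    ext w
    constructor
    · intro hw
      have hw' : c w % m = r := hw
      obtain ⟨u, hu, v, hv, huv⟩ := key (c w) w rfl
      have hdec : c w = m * (c w / m) + r := by
        rw [← hw']; exact (Nat.div_add_mod _ _).symm
      rw [hdec] at hu
      obtain ⟨s, hs, t, ht, rfl⟩ := pw_split _ _ hu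
      refine ⟨s, pw_mul_sub _ _ hs, t ++ v, ⟨t, ht, v, ?_, rfl⟩, by rw [← huv]; simp⟩
      rintro ⟨k, hk, z, -, hz⟩
      exact hv k hk z hz
    · rintro ⟨s, hs, _, ⟨t, ht, v, hv, rfl⟩, rfl⟩
      obtain ⟨q, hq⟩ := count_kst c h1 m hs (t ++ v)
      have h3 := count_pw c h1 r ht v
      have h4 : c v = 0 := by
        apply h2
        intro k hk z hz
        exact hv ⟨k, hk, z, trivial, hz⟩
      change c (s ++ (t ++ v)) % m = r
      rw [hq, h3, h4]
      simp [Nat.mod_eq_of_lt hr]
  rw [hset]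
  have hn : HeightLE 0 (cat K Set.univ) := hK.cat (heightLE_univ 0)
  exact ((hK.pw m).kst).cat (((hK.pw r).cat hn.compl).mono (by norm_num))

end GSH329
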