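import Mathlib

/-!
# Generalized regular expressions, their star height, and basic closure facts
-/

namespace GSH329

/-- Generalized regular expressions over the alphabet `α`: the constants `0`, `1`, the letters,
union, concatenation, complement and Kleene star. -/
inductive GRE (α : Type) : Type
  | zero : GRE α
  | one : GRE α
  | char : α → GRE α
  | plus : GRE α → GRE α → GRE α
  | comp : GRE α → GRE α → GRE α
  | compl : GRE α → GRE α
  | star : GRE α → GRE α

/-- The star height of a generalized regular expression. -/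
def GRE.sh {α : Type} : GRE α → ℕ
  | .zero => 0
  | .one => 0
  | .char _ => 0
  | .plus P Q => max P.sh Q.sh
  | .comp P Q => max P.sh Q.sh
  | .compl P => P.sh
  | .star P => P.sh + 1

/-- The language denoted by a generalized regular expression; the complement is taken in the set
of all words over `α`. -/
def GRE.lang {α : Type} : GRE α → Set (List α)
  | .zero => ∅
  | .one => {[]}
  | .char a => {[a]}
  | .plus P Q => P.lang ∪ Q.lang
  | .comp P Q => {w | ∃ u ∈ P.lang, ∃ v ∈ Q.lang, u ++ v = w}
  | .compl P => {w | w ∉ P.lang}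
  | .star P => {w | ∃ l : List (List α), (∀ u ∈ l, u ∈ P.lang) ∧ l.flatten = w}

/-- `HeightLE n L`: the language `L` is denoted by a generalized regular expression over the same
alphabet of star height at most `n`, i.e. its generalized star height is at most `n`. -/
def HeightLE {α : Type} (n : ℕ) (L : Set (List α)) : Prop :=
  ∃ P : GRE α, P.sh ≤ n ∧ P.lang = L

variable {α : Type}

theorem HeightLE.mono {n m : ℕ} (h : n ≤ m) {L : Set (List α)} (hL : HeightLE n L) :
    HeightLE m L := by
  obtain ⟨P, hP, rfl⟩ := hL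
  exact ⟨P, hP.trans h, rfl⟩

theorem heightLE_empty (n : ℕ) : HeightLE n (∅ : Set (List α)) := ⟨.zero, by simp [GRE.sh], rfl⟩

theorem heightLE_nil (n : ℕ) : HeightLE n ({[]} : Set (List α)) := ⟨.one, by simp [GRE.sh], rfl⟩

theorem heightLE_char (n : ℕ) (a : α) : HeightLE n ({[a]} : Set (List α)) :=
  ⟨.char a, by simp [GRE.sh], rfl⟩

theorem HeightLE.union {n : ℕ} {L M : Set (List α)} (hL : HeightLE n L) (hM : HeightLE n M) :
    HeightLE n (L ∪ M) := by
  obtain ⟨P, hP, rfl⟩ := hL
  obtain ⟨Q, hQ, rfl⟩ := hM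
  exact ⟨.plus P Q, by simp [GRE.sh, hP, hQ], rfl⟩

theorem HeightLE.compl {n : ℕ} {L : Set (List α)} (hL : HeightLE n L) : HeightLE n Lᶜ := by
  obtain ⟨P, hP, rfl⟩ := hL
  exact ⟨.compl P, by simpa [GRE.sh] using hP, rfl⟩

theorem heightLE_univ (n : ℕ) : HeightLE n (Set.univ : Set (List α)) := by
  have := (heightLE_empty (α := α) n).compl
  simpa using this

theorem HeightLE.inter {n : ℕ} {L M : Set (List α)} (hL : HeightLE n L) (hM : HeightLE n M) :
    HeightLE n (L ∩ M) := by
  have := (hL.compl.union hM.compl).compl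
  simpa [Set.compl_union] using this

theorem HeightLE.sdiff {n : ℕ} {L M : Set (List α)} (hL : HeightLE n L) (hM : HeightLE n M) :
    HeightLE n (L \ M) := by
  rw [Set.sdiff_eq]
  exact hL.inter hM.compl

/-- concatenation of languages -/
def cat (L M : Set (List α)) : Set (List α) := {w | ∃ u ∈ L, ∃ v ∈ M, u ++ v = w}

/-- Kleene star of a language -/
def kst (L : Set (List α)) : Set (List α) :=
  {w | ∃ l : List (List α), (∀ u ∈ l, u ∈ L) ∧ l.flatten = w}

/-- powers of a language -/
def pw (L : Set (List α)) : ℕ → Set (List α)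
  | 0 => {[]}
  | n + 1 => cat L (pw L n)

theorem HeightLE.cat {n : ℕ} {L M : Set (List α)} (hL : HeightLE n L) (hM : HeightLE n M) :
    HeightLE n (cat L M) := by
  obtain ⟨P, hP, rfl⟩ := hL
  obtain ⟨Q, hQ, rfl⟩ := hM
  exact ⟨.comp P Q, by simp [GRE.sh, hP, hQ], rfl⟩

theorem HeightLE.kst {n : ℕ} {L : Set (List α)} (hL : HeightLE n L) :
    HeightLE (n + 1) (kst L) := by
  obtain ⟨P, hP, rfl⟩ := hL
  exact ⟨.star P, by simpa [GRE.sh] using hP, rfl⟩

theorem HeightLE.pw {n : ℕ} {L : Set (List α)} (hL : HeightLE n L) (k : ℕ) :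
    HeightLE n (pw L k) := by
  induction k with
  | zero => exact heightLE_nil n
  | succ k ih => exact hL.cat ih

theorem HeightLE.biUnion_finset {ι : Type} {n : ℕ} (s : Finset ι) (f : ι → Set (List α))
    (h : ∀ i ∈ s, HeightLE n (f i)) : HeightLE n (⋃ i ∈ s, f i) := by
  classical
  induction s using Finset.induction_on with
  | empty => simpa using heightLE_empty n
  | insert a s ha ih =>
    have : (⋃ i ∈ insert a s, f i) = f a ∪ ⋃ i ∈ s, f i := by
      ext w; simp
    rw [this]
    exact (h a (by simp)).union (ih fun i hi => h i (by simp [hi]))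

theorem HeightLE.iUnion {ι : Type} [Finite ι] {n : ℕ} (f : ι → Set (List α))
    (h : ∀ i, HeightLE n (f i)) : HeightLE n (⋃ i, f i) := by
  classical
  have := Fintype.ofFinite ι
  have := HeightLE.biUnion_finset (n := n) Finset.univ f (fun i _ => h i)
  simpa using this

theorem HeightLE.iInter {ι : Type} [Finite ι] {n : ℕ} (f : ι → Set (List α))
    (h : ∀ i, HeightLE n (f i)) : HeightLE n (⋂ i, f i) := by
  have := (HeightLE.iUnion (fun i => (f i)ᶜ) (fun i => (h i).compl)).compl
  simpa [Set.compl_iUnion] using this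

/-- one-letter words with letter in `B` -/
def letters (B : Set α) : Set (List α) := {w | ∃ a ∈ B, w = [a]}

/-- words all of whose letters lie in `B` -/
def wordsIn (B : Set α) : Set (List α) := {w | ∀ a ∈ w, a ∈ B}

theorem heightLE_letters [Finite α] (n : ℕ) (B : Set α) : HeightLE n (letters B) := by
  have : letters B = ⋃ a : B, ({[(a : α)]} : Set (List α)) := by
    ext w; simp [letters, eq_comm]
  rw [this]
  exact HeightLE.iUnion _ fun a => heightLE_char n _

theorem heightLE_wordsIn [Finite α] (n : ℕ) (B : Set α) : HeightLE n (wordsIn B) := by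
  have : wordsIn B = (GSH329.cat Set.univ (GSH329.cat (letters Bᶜ) Set.univ))ᶜ := by
    ext w
    constructor
    · rintro hw ⟨u, -, v, ⟨s, ⟨a, ha, rfl⟩, t, -, rfl⟩, rfl⟩
      exact ha (hw a (by simp))
    · intro hw a ha
      by_contra hB
      obtain ⟨s, t, rfl⟩ := List.append_of_mem ha
      exact hw ⟨s, trivial, [a] ++ t, ⟨[a], ⟨a, hB, rfl⟩, t, trivial, rfl⟩, by simp⟩
  rw [this]
  exact ((heightLE_univ n).cat ((heightLE_letters n _).cat (heightLE_univ n))).compl

end GSH329
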