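import Vale.Agent.P329.Nilp

/-!
# Languages recognized by nilpotent groups of class at most three
-/

namespace GSH329

open Classical
open scoped commutatorElement

theorem Ph_reverse {α G : Type} [Group G] (φ : FreeMonoid α →* G) (w : List α) :
    Ph (fun a => φ (FreeMonoid.of a)) w.reverse = φ (FreeMonoid.ofList w) := by
  induction w using List.reverseRecOn with
  | nil => simp [Ph]
  | append_singleton w a ih =>
    rw [List.reverse_append, List.reverse_singleton, List.singleton_append, Ph, ih,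
      FreeMonoid.ofList_append, map_mul]
    rfl

theorem central_of_class_le_three (G : Type) [Group G] [Group.IsNilpotent G]
    (hG : Group.nilpotencyClass G ≤ 3) :
    ∀ c ∈ commutator G, ∀ h k : G, k * ⁅h, c⁆ = ⁅h, c⁆ * k := by
  intro c hc h k
  have h3 : (⊤ : Subgroup G).lowerCentralSeries 3 = ⊥ :=
    Subgroup.lowerCentralSeries_eq_bot_iff_nilpotencyClass_le.2 hG
  have hc1 : c ∈ (⊤ : Subgroup G).lowerCentralSeries 1 := hc
  have hc2 : ⁅c, h⁆ ∈ (⊤ : Subgroup G).lowerCentralSeries 2 := by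
    rw [Subgroup.lowerCentralSeries_succ]
    exact Subgroup.commutator_mem_commutator hc1 (Subgroup.mem_top h)
  have hc3 : ⁅h, c⁆ ∈ (⊤ : Subgroup G).lowerCentralSeries 2 := by
    rw [← commutatorElement_inv]
    exact Subgroup.inv_mem _ hc2
  have hc4 : ⁅⁅h, c⁆, k⁆ ∈ (⊤ : Subgroup G).lowerCentralSeries 3 := by
    rw [Subgroup.lowerCentralSeries_succ]
    exact Subgroup.commutator_mem_commutator hc3 (Subgroup.mem_top k)
  rw [h3, Subgroup.mem_bot, commutatorElement_eq_one_iff_mul_comm] at hc4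
  exact hc4.symm

theorem heightLE_of_central {α : Type} [Finite α] {G : Type} [Group G] [Finite G]
    (hZ : ∀ c ∈ commutator G, ∀ h k : G, k * ⁅h, c⁆ = ⁅h, c⁆ * k)
    (φ : FreeMonoid α →* G) (S : Set G) :
    HeightLE 1 {w : List α | φ (FreeMonoid.ofList w) ∈ S} := by
  have hfin : Fintype α := Fintype.ofFinite α
  obtain ⟨M, hMdef⟩ : ∃ M : ℕ, M = Nat.card G := ⟨_, rfl⟩
  have hM : 0 < M := by rw [hMdef]; exact Nat.card_pos
  have hM' : (0 : ℤ) < M := by exact_mod_cast hM
  have hU : Finite {u : List α // u.length ≤ 3} := (List.finite_length_le α 3).to_subtype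
  have key1 : ∀ z : ℤ, ∃ i : Fin M, (M : ℤ) ∣ z - ((i : ℕ) : ℤ) := by
    intro z
    have h0 : 0 ≤ z % M := Int.emod_nonneg _ (by omega)
    have h1 : z % M < M := Int.emod_lt_of_pos _ hM'
    refine ⟨⟨(z % M).toNat, by omega⟩, ?_⟩
    have : (((z % M).toNat : ℕ) : ℤ) = z % M := Int.toNat_of_nonneg h0
    simp only [this]
    exact Int.dvd_self_sub_emod
  letI inst : CommGroup (commutator G) :=
    { (inferInstance : Group (commutator G)) with
      mul_comm := fun a b => Subtype.ext (comm_comm hZ a b a.2 b.2) }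
  have hdet : ∀ w w' : List α, (∀ u : List α, u.length ≤ 3 →
      (M : ℤ) ∣ cn u w.reverse - cn u w'.reverse) →
      φ (FreeMonoid.ofList w) = φ (FreeMonoid.ofList w') := by
    intro w w' h
    rw [← Ph_reverse, ← Ph_reverse]
    refine Ph_det (B := commutator G) hZ (commutator G).subtype Subtype.val_injective
      (fun b => b.2) (fun c hc => ⟨⟨c, hc⟩, rfl⟩) _ M ?_ Finset.univ.toList _ _
      (fun a _ => by simp) (fun a _ => by simp) h
    intro b
    rw [hMdef, zpow_natCast]
    exact pow_card_eq_one'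
  have key : {w : List α | φ (FreeMonoid.ofList w) ∈ S} =
      ⋃ ρ : {ρ : {u : List α // u.length ≤ 3} → Fin M // ∃ w, φ (FreeMonoid.ofList w) ∈ S ∧
        ∀ u : {u : List α // u.length ≤ 3}, (M : ℤ) ∣ cn u.1 w.reverse - ((ρ u : ℕ) : ℤ)},
        ⋂ u : {u : List α // u.length ≤ 3},
          {w | (M : ℤ) ∣ cn u.1 w.reverse - ((ρ.1 u : ℕ) : ℤ)} := by
    ext w
    simp only [Set.mem_iUnion, Set.mem_iInter]
    constructor
    · intro hw
      choose ρ hρ using fun u : {u : List α // u.length ≤ 3} => key1 (cn u.1 w.reverse)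
      exact ⟨⟨ρ, w, hw, hρ⟩, hρ⟩
    · rintro ⟨⟨ρ, w', hw', hρ'⟩, hρ⟩
      have h1 : φ (FreeMonoid.ofList w) = φ (FreeMonoid.ofList w') := by
        refine hdet w w' fun u hu => ?_
        have h2 : (M : ℤ) ∣ cn u w.reverse - ((ρ ⟨u, hu⟩ : ℕ) : ℤ) := hρ ⟨u, hu⟩
        have h3 : (M : ℤ) ∣ cn u w'.reverse - ((ρ ⟨u, hu⟩ : ℕ) : ℤ) := hρ' ⟨u, hu⟩
        have h4 := dvd_sub h2 h3
        simpa using h4
      change φ (FreeMonoid.ofList w) ∈ S
      rw [h1]; exact hw'
  rw [key]
  refine HeightLE.iUnion _ fun ρ => HeightLE.iInter _ fun u => ?_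
  exact FnR_cn u.1 u.2 M hM _

end GSH329
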