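import Vale.Agent.P329.Subword

/-!
# Products in a nilpotent group of class three are determined by subword counts
-/

namespace GSH329

open Classical
open scoped commutatorElement

section LinSection

variable {α : Type} {B : Type} [CommGroup B]

/-- functions with values in a commutative group which are products of powers `b ^ (cn u r)` with
`u` of length at most `d` -/
inductive Lin : ℕ → (List α → B) → Prop
  | basic (d : ℕ) (u : List α) (hu : u.length ≤ d) (b : B) : Lin d (fun r => b ^ (cn u r))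
  | mul (d : ℕ) (F H : List α → B) : Lin d F → Lin d H → Lin d (fun r => F r * H r)

theorem Lin.congr {d : ℕ} {F H : List α → B} (hF : Lin d F) (h : ∀ r, H r = F r) : Lin d H := by
  have : H = F := funext h
  rw [this]; exact hF

theorem Lin.const (d : ℕ) (b : B) : Lin d (fun _ : List α => b) :=
  (Lin.basic d [] (by simp) b).congr (by intro r; simp [cn])

theorem Lin.prod {ι : Type} {d : ℕ} (s : Finset ι) (F : ι → List α → B)
    (h : ∀ i ∈ s, Lin d (F i)) : Lin d (fun r => ∏ i ∈ s, F i r) := by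
  induction s using Finset.induction_on with
  | empty => simpa using Lin.const d 1
  | insert a s ha ih =>
    exact (Lin.mul d _ _ (h a (by simp)) (ih fun i hi => h i (by simp [hi]))).congr
      (fun r => Finset.prod_insert ha)

/-- product of `F` over the occurrences of `x` -/
noncomputable def Sg (x : α) (F : List α → B) : List α → B
  | [] => 1
  | y :: r => Sg x F r * if y = x then F r else 1

theorem Lin.sg {d : ℕ} {F : List α → B} (hF : Lin d F) (x : α) : Lin (d + 1) (Sg x F) := by
  induction hF with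
  | basic u hu b =>
    refine (Lin.basic (d + 1) (x :: u) (by simpa using hu) b).congr ?_
    intro r
    induction r with
    | nil => simp [Sg, cn, SS]
    | cons y r ih =>
      rw [Sg, ih, cn_cons, zpow_add]
      split_ifs <;> simp
  | mul F H _ _ ihF ihH =>
    refine (Lin.mul (d + 1) _ _ ihF ihH).congr ?_
    intro r
    induction r with
    | nil => simp [Sg]
    | cons y r ih =>
      rw [Sg, ih, Sg, Sg]
      split_ifs
      · rw [mul_mul_mul_comm]
      · simp

theorem Lin.of_step [Fintype α] {d : ℕ} (F : List α → B) (H : α → List α → B)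
    (h : ∀ y r, F (y :: r) = F r * H y r) (hH : ∀ y, Lin d (H y)) : Lin (d + 1) F := by
  have key : ∀ r, F r = F [] * ∏ y : α, Sg y (H y) r := by
    intro r
    induction r with
    | nil => simp [Sg]
    | cons z r ih =>
      rw [h, ih]
      simp only [Sg, Finset.prod_mul_distrib, Finset.prod_ite_eq, Finset.mem_univ, if_true]
      rw [mul_assoc]
  exact (Lin.mul (d + 1) _ _ (Lin.const (d + 1) (F []))
    (Lin.prod Finset.univ _ fun y _ => (hH y).sg y)).congr key

/-- erase the letter `x` -/
noncomputable def er (x : α) (r : List α) : List α := r.filter (fun y => decide (y ≠ x))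

theorem er_cons_self (x : α) (r : List α) : er x (x :: r) = er x r := by simp [er]

theorem er_cons_ne {x y : α} (h : y ≠ x) (r : List α) : er x (y :: r) = y :: er x r := by
  simp [er, h]

theorem cn_er_of_not_mem {x : α} {u : List α} (hu : x ∉ u) (r : List α) :
    cn u (er x r) = cn u r := by
  induction r generalizing u with
  | nil => rfl
  | cons y r ih =>
    cases u with
    | nil => rfl
    | cons z u =>
      have hz : x ≠ z := fun h => hu (by simp [h])
      have hu' : x ∉ u := fun h => hu (by simp [h])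
      by_cases hy : y = x
      · subst hy
        rw [er_cons_self, ih hu, cn_cons, if_neg hz, add_zero]
      · rw [er_cons_ne hy, cn_cons, cn_cons, ih hu, ih hu']

theorem cn_er_of_mem {x : α} {u : List α} (hu : x ∈ u) (r : List α) :
    cn u (er x r) = 0 := by
  induction r generalizing u with
  | nil =>
    cases u with
    | nil => simp at hu
    | cons z u => rfl
  | cons y r ih =>
    by_cases hy : y = x
    · subst hy
      rw [er_cons_self, ih hu]
    · cases u with
      | nil => simp at hu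
      | cons z u =>
        rw [er_cons_ne hy, cn_cons, ih hu]
        by_cases hz : y = z
        · have : x ∈ u := by
            rcases List.mem_cons.1 hu with h | h
            · exact absurd (hz.trans h.symm) hy
            · exact h
          rw [if_pos hz, ih this]; rfl
        · rw [if_neg hz]; rfl

theorem Lin.er {d : ℕ} {F : List α → B} (hF : Lin d F) (x : α) :
    Lin d (fun r => F (GSH329.er x r)) := by
  induction hF with
  | basic u hu b =>
    by_cases hx : x ∈ u
    · exact (Lin.const d 1).congr (fun r => by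
        change b ^ cn u (GSH329.er x r) = 1
        rw [cn_er_of_mem hx, zpow_zero])
    · exact (Lin.basic d u hu b).congr (fun r => by
        change b ^ cn u (GSH329.er x r) = b ^ cn u r
        rw [cn_er_of_not_mem hx])
  | mul F H _ _ ihF ihH => exact Lin.mul d _ _ ihF ihH

theorem Lin.map {B' : Type} [CommGroup B'] {d : ℕ} {F : List α → B} (hF : Lin d F)
    (ψ : B →* B') : Lin d (fun r => ψ (F r)) := by
  induction hF with
  | basic u hu b => exact (Lin.basic d u hu (ψ b)).congr (fun r => by rw [map_zpow])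
  | mul F H _ _ ihF ihH => exact (Lin.mul d _ _ ihF ihH).congr (fun r => by rw [map_mul])

theorem Lin.powf {d : ℕ} {F : List α → B} (hF : Lin d F) (hd : d = 1) (x : α) :
    Lin 2 (fun r => (F r) ^ (cn [x] r)) := by
  induction hF with
  | basic u hu b =>
    subst hd
    match u, hu with
    | [], _ =>
      exact (Lin.basic 2 [x] (by simp) b).congr (fun r => by
        change (b ^ cn [] r) ^ cn [x] r = b ^ cn [x] r
        rw [cn_nil_left, zpow_one])
    | [a], _ =>
      by_cases ha : a = x
      · subst ha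
        refine (Lin.mul 2 _ _ (Lin.basic 2 [a, a] (by simp) (b ^ (2 : ℤ)))
          (Lin.basic 2 [a] (by simp) b)).congr ?_
        intro r
        rw [← zpow_mul, ← zpow_mul, ← zpow_add, two_cn_same]
        congr 1; ring
      · refine (Lin.mul 2 _ _ (Lin.basic 2 [a, x] (by simp) b)
          (Lin.basic 2 [x, a] (by simp) b)).congr ?_
        intro r
        rw [← zpow_mul, ← zpow_add]
        congr 1
        exact mul_cn_ne x a (Ne.symm ha) r
    | _ :: _ :: _, h =>
      simp only [List.length_cons] at h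
      omega
  | mul F H _ _ ihF ihH =>
    exact (Lin.mul 2 _ _ ihF ihH).congr (fun r => by rw [mul_zpow])

theorem zpow_congr' {G : Type} [Group G] (b : G) (M m n : ℤ) (hb : b ^ M = 1) (h : M ∣ m - n) :
    b ^ m = b ^ n := by
  obtain ⟨k, hk⟩ := h
  have : m = M * k + n := by linarith
  rw [this, zpow_add, zpow_mul, hb, one_zpow, one_mul]

theorem Lin.det {d : ℕ} {F : List α → B} (hF : Lin d F) (M : ℤ) (hM : ∀ b : B, b ^ M = 1)
    (r r' : List α) (h : ∀ u : List α, u.length ≤ d → M ∣ cn u r - cn u r') : F r = F r' := by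
  induction hF with
  | basic u hu b => exact zpow_congr' b M _ _ (hM b) (h u hu)
  | mul F H _ _ ihF ihH => exact congrArg₂ _ ihF ihH

end LinSection

section GroupSection

variable {α : Type} {G : Type} [Group G]

/-- product of the values of the letters of a reversed word -/
def Ph (g : α → G) : List α → G
  | [] => 1
  | y :: r => Ph g r * g y

variable (hZ : ∀ c ∈ commutator G, ∀ h k : G, k * ⁅h, c⁆ = ⁅h, c⁆ * k)

theorem comm_mem (h k : G) : ⁅h, k⁆ ∈ commutator G := by
  rw [commutator_def]
  exact Subgroup.commutator_mem_commutator (Subgroup.mem_top h) (Subgroup.mem_top k)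

include hZ in
theorem ad_mul (c : G) (hc : c ∈ commutator G) (h k : G) : ⁅h * k, c⁆ = ⁅h, c⁆ * ⁅k, c⁆ := by
  have h1 : ⁅h * k, c⁆ = h * ⁅k, c⁆ * c * h⁻¹ * c⁻¹ := by
    simp only [commutatorElement_def]; group
  rw [h1, hZ c hc k h, hZ c hc k ⁅h, c⁆]
  simp only [commutatorElement_def]; group

include hZ in
theorem comm_comm (c d : G) (hc : c ∈ commutator G) (hd : d ∈ commutator G) : c * d = d * c := by
  let f : G →* G :=
    { toFun := fun h => ⁅h, c⁆
      map_one' := by simp
      map_mul' := fun h k => ad_mul hZ c hc h k }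
  have h1 : commutator G ≤ f.ker := by
    rw [commutator_def, Subgroup.commutator_le]
    intro h _ k _
    rw [MonoidHom.mem_ker, map_commutatorElement, commutatorElement_eq_one_iff_mul_comm]
    exact hZ c hc k (f h)
  have h2 : ⁅d, c⁆ = 1 := (MonoidHom.mem_ker).1 (h1 hd)
  have h3 : d * c = c * d := commutatorElement_eq_one_iff_mul_comm.1 h2
  exact h3.symm

include hZ in
theorem ad_mul_right (h : G) (c d : G) (hc : c ∈ commutator G) (hd : d ∈ commutator G) :
    ⁅h, c * d⁆ = ⁅h, c⁆ * ⁅h, d⁆ := by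
  have h1 : ⁅h, c * d⁆ = ⁅h, c⁆ * (c * ⁅h, d⁆ * c⁻¹) := by
    simp only [commutatorElement_def]; group
  rw [h1, hZ d hd h c]
  group

include hZ in
theorem conj_mul_ad (c : G) (hc : c ∈ commutator G) (h : G) (n : ℤ) :
    h ^ n * c * (h ^ n)⁻¹ = ⁅h, c⁆ ^ n * c := by
  let f : G →* G :=
    { toFun := fun k => ⁅k, c⁆
      map_one' := by simp
      map_mul' := fun h k => ad_mul hZ c hc h k }
  have h1 : ⁅h ^ n, c⁆ = ⁅h, c⁆ ^ n := map_zpow f h n
  rw [← h1, commutatorElement_def]
  group

variable {B : Type} [CommGroup B] (ι : B →* G) (hι : Function.Injective ι)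
  (hmem : ∀ b, ι b ∈ commutator G) (hr : ∀ c ∈ commutator G, ∃ b, ι b = c)

/-- lift of an element of the commutator subgroup -/
noncomputable def lf (g : G) : B := if h : ∃ b, ι b = g then h.choose else 1

include hr in
theorem lf_spec {c : G} (hc : c ∈ commutator G) : ι (lf ι c) = c := by
  have h := hr c hc
  rw [lf, dif_pos h]
  exact h.choose_spec

include hι in
theorem lf_ι (b : B) : lf ι (ι b) = b := by
  have h : ∃ b', ι b' = ι b := ⟨b, rfl⟩
  apply hι
  rw [lf, dif_pos h]
  exact h.choose_spec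

variable [Fintype α] (g : α → G)

/-- conjugation of `c` by the product of the word -/
noncomputable def Wf (c : B) (r : List α) : B := lf ι (Ph g r * ι c * (Ph g r)⁻¹)

theorem conj_mem (h c : G) (hc : c ∈ commutator G) : h * c * h⁻¹ ∈ commutator G :=
  (inferInstance : (commutator G).Normal).conj_mem c hc h

include hZ hι hmem hr in
theorem Lin_Wf (c : B) : Lin 1 (Wf ι g c) := by
  refine Lin.of_step (d := 0) (Wf ι g c) (fun y _ => lf ι ⁅g y, ι c⁆) ?_
    (fun y => Lin.const 0 _)
  intro y r
  apply hι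
  rw [map_mul, Wf, Wf, lf_spec ι hr (conj_mem _ _ (hmem c)), lf_spec ι hr (conj_mem _ _ (hmem c)),
    lf_spec ι hr (comm_mem _ _), Ph]
  have h1 : Ph g r * g y * ι c * (Ph g r * g y)⁻¹ =
      Ph g r * ⁅g y, ι c⁆ * ι c * (Ph g r)⁻¹ := by
    simp only [commutatorElement_def]; group
  rw [h1, hZ (ι c) (hmem c) (g y) (Ph g r), mul_assoc, mul_assoc, ← mul_assoc (Ph g r),
    ← hZ (ι c) (hmem c) (g y)]

/-- the commutator with the letter `x` -/
noncomputable def Cf (x : α) (r : List α) : B := lf ι ⁅Ph g r, g x⁆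

include hZ hι hmem hr in
theorem Lin_Cf (x : α) : Lin 2 (Cf ι g x) := by
  refine Lin.of_step (d := 1) (Cf ι g x) (fun y => Wf ι g (lf ι ⁅g y, g x⁆)) ?_
    (fun y => Lin_Wf hZ ι hι hmem hr g _)
  intro y r
  apply hι
  rw [map_mul, Wf, Cf, Cf, lf_spec ι hr (comm_mem _ _), lf_spec ι hr (comm_mem _ _),
    lf_spec ι hr (conj_mem _ _ (hmem _)), lf_spec ι hr (comm_mem _ _), Ph]
  have h1 : ⁅Ph g r * g y, g x⁆ = (Ph g r * ⁅g y, g x⁆ * (Ph g r)⁻¹) * ⁅Ph g r, g x⁆ := by
    simp only [commutatorElement_def]; group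
  rw [h1]
  exact comm_comm hZ _ _ (conj_mem _ _ (comm_mem _ _)) (comm_mem _ _)

/-- commutation with the letter `x`, as an endomorphism of the commutator subgroup -/
noncomputable def adx (x : α) : B →* B where
  toFun b := lf ι ⁅g x, ι b⁆
  map_one' := by
    apply hι
    rw [lf_spec ι hr (comm_mem _ _)]
    simp
  map_mul' b c := by
    apply hι
    rw [map_mul ι (lf ι _) (lf ι _), lf_spec ι hr (comm_mem _ _), lf_spec ι hr (comm_mem _ _),
      lf_spec ι hr (comm_mem _ _), map_mul ι b c]
    exact ad_mul_right hZ (g x) (ι b) (ι c) (hmem b) (hmem c)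

include hmem in
theorem Lin_adx_Cf (x : α) : Lin 1 (fun r => adx hZ ι hι hmem hr g x (Cf ι g x r)) := by
  refine Lin.of_step (d := 0) _ (fun y _ => adx hZ ι hι hmem hr g x (lf ι ⁅g y, g x⁆)) ?_
    (fun y => Lin.const 0 _)
  intro y r
  apply hι
  have h1 : ⁅Ph g r * g y, g x⁆ = (Ph g r * ⁅g y, g x⁆ * (Ph g r)⁻¹) * ⁅Ph g r, g x⁆ := by
    simp only [commutatorElement_def]; group
  have h2 : Ph g r * ⁅g y, g x⁆ * (Ph g r)⁻¹ = ⁅Ph g r, ⁅g y, g x⁆⁆ * ⁅g y, g x⁆ := by
    simp only [commutatorElement_def]; group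
  have hc := comm_mem (g y) (g x)
  have h4 : ⁅g x, ⁅Ph g r, ⁅g y, g x⁆⁆⁆ = 1 := by
    rw [commutatorElement_eq_one_iff_mul_comm]
    exact hZ _ hc (Ph g r) (g x)
  have h3 : ⁅g x, ⁅Ph g r * g y, g x⁆⁆ = ⁅g x, ⁅Ph g r, g x⁆⁆ * ⁅g x, ⁅g y, g x⁆⁆ := by
    rw [h1, comm_comm hZ _ _ (conj_mem _ _ hc) (comm_mem _ _),
      ad_mul_right hZ _ _ _ (comm_mem _ _) (conj_mem _ _ hc), h2,
      ad_mul_right hZ _ _ _ (comm_mem _ _) hc, h4, one_mul]
  change ι (lf ι ⁅g x, ι (lf ι ⁅Ph g r * g y, g x⁆)⁆) = ι (lf ι ⁅g x, ι (lf ι ⁅Ph g r, g x⁆)⁆ *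
    lf ι ⁅g x, ι (lf ι ⁅g y, g x⁆)⁆)
  rw [map_mul ι, lf_spec ι hr (comm_mem _ _), lf_spec ι hr (comm_mem _ _),
    lf_spec ι hr (comm_mem _ _), lf_spec ι hr (comm_mem _ _), lf_spec ι hr (comm_mem _ _),
    lf_spec ι hr (comm_mem _ _)]
  exact h3

/-- the collected factor -/
noncomputable def Vf (x : α) (r : List α) : B :=
  (adx hZ ι hι hmem hr g x (Cf ι g x (er x r))) ^ (cn [x] r) * Cf ι g x (er x r)

theorem Vf_spec (x : α) (r : List α) : ι (Vf hZ ι hι hmem hr g x r) =
    (g x) ^ (cn [x] r) * ⁅Ph g (er x r), g x⁆ * ((g x) ^ (cn [x] r))⁻¹ := by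
  rw [conj_mul_ad hZ _ (comm_mem _ _) (g x) (cn [x] r), Vf, map_mul, map_zpow]
  have h1 : ι (Cf ι g x (er x r)) = ⁅Ph g (er x r), g x⁆ := lf_spec ι hr (comm_mem _ _)
  have h2 : ι (adx hZ ι hι hmem hr g x (Cf ι g x (er x r))) =
      ⁅g x, ι (Cf ι g x (er x r))⁆ := lf_spec ι hr (comm_mem _ _)
  rw [h2, h1]

theorem Lin_Vf (x : α) : Lin 2 (Vf hZ ι hι hmem hr g x) :=
  Lin.mul 2 _ _ (((Lin_adx_Cf hZ ι hι hmem hr g x).er x).powf rfl x)
    ((Lin_Cf hZ ι hι hmem hr g x).er x)

theorem Ph_decomp (x : α) (r : List α) :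
    Ph g r = ι (Sg x (Vf hZ ι hι hmem hr g x) r) * (g x) ^ (cn [x] r) * Ph g (er x r) := by
  induction r with
  | nil => simp [Ph, Sg, cn, SS, er]
  | cons y r ih =>
    rw [Ph, ih, Sg, cn_cons]
    by_cases h : y = x
    · subst h
      rw [if_pos rfl, if_pos rfl, er_cons_self, cn_nil_left, map_mul, Vf_spec, zpow_add,
        zpow_one]
      simp only [commutatorElement_def]; group
    · rw [if_neg h, if_neg h, er_cons_ne h, Ph]
      simp only [mul_one, add_zero]; group

include hZ hι hmem hr in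
theorem Ph_det (M : ℤ) (hM : ∀ b : G, b ^ M = 1) (l : List α) : ∀ r r' : List α,
    (∀ a ∈ r, a ∈ l) → (∀ a ∈ r', a ∈ l) →
    (∀ u : List α, u.length ≤ 3 → M ∣ cn u r - cn u r') → Ph g r = Ph g r' := by
  have hMB : ∀ b : B, b ^ M = 1 := by
    intro b
    apply hι
    rw [map_zpow, hM, map_one]
  induction l with
  | nil =>
    intro r r' h1 h2 _
    have h3 : r = [] := List.eq_nil_iff_forall_not_mem.2 fun a ha => by simpa using h1 a ha
    have h4 : r' = [] := List.eq_nil_iff_forall_not_mem.2 fun a ha => by simpa using h2 a ha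
    rw [h3, h4]
  | cons x l ih =>
    intro r r' h1 h2 h3
    rw [Ph_decomp hZ ι hι hmem hr g x r, Ph_decomp hZ ι hι hmem hr g x r']
    have h4 : Sg x (Vf hZ ι hι hmem hr g x) r = Sg x (Vf hZ ι hι hmem hr g x) r' :=
      ((Lin_Vf hZ ι hι hmem hr g x).sg x).det M hMB r r' h3
    have h5 : (g x) ^ (cn [x] r) = (g x) ^ (cn [x] r') :=
      zpow_congr' _ M _ _ (hM _) (h3 [x] (by simp))
    have hmem' : ∀ s : List α, (∀ a ∈ s, a ∈ x :: l) → ∀ a ∈ er x s, a ∈ l := by
      intro s hs a ha
      rw [er, List.mem_filter] at ha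
      have h6 := hs a ha.1
      have h7 : a ≠ x := by simpa using ha.2
      rcases List.mem_cons.1 h6 with h | h
      · exact absurd h h7
      · exact h
    have h6 : Ph g (er x r) = Ph g (er x r') := by
      refine ih _ _ (hmem' r h1) (hmem' r' h2) ?_
      intro u hu
      by_cases hx : x ∈ u
      · rw [cn_er_of_mem hx, cn_er_of_mem hx]; simp
      · rw [cn_er_of_not_mem hx, cn_er_of_not_mem hx]; exact h3 u hu
    rw [h4, h5, h6]

end GroupSection

end GSH329
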