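import Vale.Agent.P329.Count

/-!
# The ring of integer valued functions all of whose residue classes have height at most one
-/

namespace GSH329

variable {α : Type}

/-- `f` is a function on words all of whose residue languages have height at most one -/
def Fn (f : List α → ℤ) : Prop :=
  ∀ m : ℕ, 0 < m → ∀ r : ℤ, HeightLE 1 {w | (m : ℤ) ∣ f w - r}

theorem Fn.const (k : ℤ) : Fn (fun _ : List α => k) := by
  intro m hm r
  by_cases h : (m : ℤ) ∣ k - r
  · have : {w : List α | (m : ℤ) ∣ k - r} = Set.univ := by ext w; simp [h]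
    rw [this]; exact heightLE_univ 1
  · have : {w : List α | (m : ℤ) ∣ k - r} = ∅ := by ext w; simp [h]
    rw [this]; exact heightLE_empty 1

theorem Fn.neg {f : List α → ℤ} (hf : Fn f) : Fn (fun w => - f w) := by
  intro m hm r
  have : {w : List α | (m : ℤ) ∣ - f w - r} = {w | (m : ℤ) ∣ f w - (-r)} := by
    ext w
    simp only [Set.mem_setOf_eq]
    rw [show - f w - r = -(f w - (-r)) by ring, dvd_neg]
  rw [this]; exact hf m hm _

theorem Fn.map2 {f g : List α → ℤ} (hf : Fn f) (hg : Fn g) (op : ℤ → ℤ → ℤ)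
    (hop : ∀ (m : ℤ) (a b c d : ℤ), m ∣ a - b → m ∣ c - d → m ∣ op a c - op b d) :
    Fn (fun w => op (f w) (g w)) := by
  intro m hm r
  have hm' : (0 : ℤ) < m := by exact_mod_cast hm
  have : {w : List α | (m : ℤ) ∣ op (f w) (g w) - r} =
      ⋃ i : {p : Fin m × Fin m // (m : ℤ) ∣ op (p.1 : ℕ) (p.2 : ℕ) - r},
        ({w | (m : ℤ) ∣ f w - ((i.1.1 : ℕ) : ℤ)} ∩ {w | (m : ℤ) ∣ g w - ((i.1.2 : ℕ) : ℤ)}) := by
    ext w
    simp only [Set.mem_setOf_eq, Set.mem_iUnion, Set.mem_inter_iff]
    constructor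
    · intro h
      have key : ∀ z : ℤ, ∃ i : Fin m, (m : ℤ) ∣ z - ((i : ℕ) : ℤ) := by
        intro z
        have h0 : 0 ≤ z % m := Int.emod_nonneg _ (by omega)
        have h1 : z % m < m := Int.emod_lt_of_pos _ hm'
        refine ⟨⟨(z % m).toNat, by omega⟩, ?_⟩
        have : (((z % m).toNat : ℕ) : ℤ) = z % m := Int.toNat_of_nonneg h0
        simp only [this]
        exact Int.dvd_self_sub_emod
      obtain ⟨i, hi⟩ := key (f w)
      obtain ⟨j, hj⟩ := key (g w)
      refine ⟨⟨(i, j), ?_⟩, hi, hj⟩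
      have h2 := hop m _ _ _ _ hi hj
      have h3 := dvd_sub h h2
      simpa using h3
    · rintro ⟨⟨⟨i, j⟩, hij⟩, hi, hj⟩
      have h2 := hop m _ _ _ _ hi hj
      have h3 := dvd_add h2 hij
      simpa using h3
  rw [this]
  exact HeightLE.iUnion _ fun i => (hf m hm _).inter (hg m hm _)

theorem Fn.add {f g : List α → ℤ} (hf : Fn f) (hg : Fn g) : Fn (fun w => f w + g w) :=
  hf.map2 hg (fun a b => a + b) (by
    intro m a b c d h1 h2
    have h3 := dvd_add h1 h2
    have h4 : (a + c) - (b + d) = a - b + (c - d) := by ring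
    exact h4 ▸ h3)

theorem Fn.sub {f g : List α → ℤ} (hf : Fn f) (hg : Fn g) : Fn (fun w => f w - g w) := by
  have := hf.add hg.neg
  simpa [sub_eq_add_neg] using this

theorem Fn.mul {f g : List α → ℤ} (hf : Fn f) (hg : Fn g) : Fn (fun w => f w * g w) :=
  hf.map2 hg (fun a b => a * b) (by
    intro m a b c d h1 h2
    have h3 := dvd_add (Dvd.dvd.mul_left h2 a) (Dvd.dvd.mul_right h1 d)
    have h4 : (a * c) - (b * d) = a * (c - d) + (a - b) * d := by ring
    exact h4 ▸ h3)

theorem Fn.sum {ι : Type} (s : Finset ι) (f : ι → List α → ℤ) (h : ∀ i ∈ s, Fn (f i)) :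
    Fn (fun w => ∑ i ∈ s, f i w) := by
  classical
  induction s using Finset.induction_on with
  | empty => simpa using Fn.const 0
  | insert a s ha ih =>
    have h1 := (h a (by simp)).add (ih fun i hi => h i (by simp [hi]))
    have h2 : (fun w => ∑ i ∈ insert a s, f i w) = fun w => f a w + ∑ i ∈ s, f i w := by
      funext w; exact Finset.sum_insert ha
    rw [h2]; exact h1

/-- exact division -/
theorem Fn.of_mul {f : List α → ℤ} (k : ℕ) (hk : 0 < k) (hf : Fn (fun w => k * f w)) : Fn f := by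
  intro m hm r
  have : {w : List α | (m : ℤ) ∣ f w - r} = {w | ((k * m : ℕ) : ℤ) ∣ k * f w - k * r} := by
    ext w
    simp only [Set.mem_setOf_eq]
    rw [← mul_sub]
    push_cast
    have hk' : (k : ℤ) ≠ 0 := by exact_mod_cast hk.ne'
    exact (mul_dvd_mul_iff_left hk').symm
  rw [this]
  exact hf (k * m) (Nat.mul_pos hk hm) _

theorem Fn.of_local {f : List α → ℤ}
    (h : ∀ m : ℕ, 0 < m → ∃ g : List α → ℤ, Fn g ∧ ∀ w, (m : ℤ) ∣ f w - g w) : Fn f := by
  intro m hm r
  obtain ⟨g, hg, hfg⟩ := h m hm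
  have : {w : List α | (m : ℤ) ∣ f w - r} = {w | (m : ℤ) ∣ g w - r} := by
    ext w
    simp only [Set.mem_setOf_eq]
    constructor
    · intro h1
      have := dvd_sub h1 (hfg w)
      simpa using this
    · intro h1
      have := dvd_add h1 (hfg w)
      simpa using this
  rw [this]
  exact hg m hm r

theorem Fn.of_nat {c : List α → ℕ} (h : ∀ m : ℕ, 0 < m → ∀ r : ℕ, HeightLE 1 {w | c w % m = r}) :
    Fn (fun w => (c w : ℤ)) := by
  intro m hm r
  have hm' : (0 : ℤ) < m := by exact_mod_cast hm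
  have h0 : 0 ≤ r % m := Int.emod_nonneg _ (by omega)
  have : {w : List α | (m : ℤ) ∣ (c w : ℤ) - r} = {w | c w % m = (r % m).toNat} := by
    ext w
    simp only [Set.mem_setOf_eq]
    rw [← Int.modEq_iff_dvd, Int.ModEq]
    constructor
    · intro h1
      have h3 : ((c w % m : ℕ) : ℤ) = r % m := by rw [h1]; push_cast; rfl
      omega
    · intro h1
      have h3 : ((c w % m : ℕ) : ℤ) = r % m := by rw [h1]; exact Int.toNat_of_nonneg h0
      push_cast at h3
      exact h3.symm
  rw [this]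
  exact h m hm _

end GSH329
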