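import Vale.Agent.P329.Clock

/-!
# Counting scattered subwords of length at most three
-/

namespace GSH329

open Classical

variable {α : Type}

/-- sum, over the occurrences of `x`, of the `e`-th power of `q` plus the number of clock letters
before it -/
noncomputable def TT (A : Set α) (x : α) (e : ℕ) : ℤ → List α → ℤ
  | _, [] => 0
  | q, y :: w => (if y = x then q ^ e else 0) + TT A x e (if y ∈ A then q + 1 else q) w

theorem val_add_one' (m : ℕ) [NeZero m] (z : ZMod m) :
    (z + 1).val = if z.val + 1 = m then 0 else z.val + 1 := by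
  have hz : z.val < m := ZMod.val_lt z
  rw [ZMod.val_add, ZMod.val_one_eq_one_mod, Nat.add_mod_mod]
  split_ifs with h
  · rw [h, Nat.mod_self]
  · exact Nat.mod_eq_of_lt (by omega)

theorem TT_mod (A : Set α) (x : α) (e m : ℕ) [NeZero m] (w : List α) (q : ℤ) :
    ((TT A x e q w : ℤ) : ZMod m) =
      ∑ z : ZMod m, z ^ e * (nn A x m (((q : ZMod m) - z).val) w : ZMod m) := by
  induction w generalizing q with
  | nil => simp [TT, nn]
  | cons y w ih =>
    have h1 : ∀ z : ZMod m, nn A x m (((q : ZMod m) - z).val) (y :: w) =
        (if y = x ∧ (q : ZMod m) = z then 1 else 0) +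
          nn A x m ((((if y ∈ A then q + 1 else q : ℤ) : ZMod m) - z).val) w := by
      intro z
      rw [nn]
      congr 1
      · simp only [ZMod.val_eq_zero, sub_eq_zero]
      · by_cases hy : y ∈ A
        · simp only [hy, if_true]
          rw [← val_add_one']
          congr 1
          push_cast
          congr 1
          ring
        · simp only [hy, if_false]
    simp only [h1, Nat.cast_add, mul_add, Finset.sum_add_distrib]
    rw [← ih, TT]
    push_cast
    congr 1
    by_cases hyx : y = x
    · simp [hyx]
    · simp [hyx]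

theorem Fn_TT [Finite α] (A : Set α) (x : α) (hx : x ∉ A) (e : ℕ) :
    Fn (fun w => TT A x e 0 w) := by
  apply Fn.of_local
  intro m hm
  have : NeZero m := ⟨by omega⟩
  refine ⟨fun w => ∑ z : ZMod m, ((z.val : ℤ) ^ e) * (nn A x m (((0 : ZMod m) - z).val) w : ℤ),
    ?_, ?_⟩
  · exact Fn.sum _ _ fun z _ => (Fn.const _).mul (Fn_nn A x hx m _ (ZMod.val_lt _))
  · intro w
    rw [← ZMod.intCast_zmod_eq_zero_iff_dvd]
    push_cast
    rw [TT_mod]
    simp

/-- sum of `P` over the occurrences of `x`, on reversed words -/
noncomputable def SS (x : α) (P : List α → ℤ) : List α → ℤ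
  | [] => 0
  | y :: r => SS x P r + if y = x then P r else 0

/-- number of occurrences of a scattered subword (both words are read backwards) -/
noncomputable def cn : List α → List α → ℤ
  | [] => fun _ => 1
  | x :: u => SS x (cn u)

/-- the number of letters of `A` -/
noncomputable def fa (A : Set α) : List α → ℤ
  | [] => 0
  | y :: r => fa A r + if y ∈ A then 1 else 0

theorem TT_snoc (A : Set α) (x : α) (e : ℕ) (w : List α) (y : α) (q : ℤ) :
    TT A x e q (w ++ [y]) = TT A x e q w + if y = x then (q + fa A w.reverse) ^ e else 0 := by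
  induction w generalizing q with
  | nil => simp [TT, fa]
  | cons z w ih =>
    have hfa : ∀ (r : List α) (z : α), fa A (r ++ [z]) = fa A r + if z ∈ A then 1 else 0 := by
      intro r z
      induction r with
      | nil => simp [fa]
      | cons t r ihr => simp only [List.cons_append, fa, ihr]; ring
    rw [List.cons_append, TT, TT, ih, List.reverse_cons, hfa]
    by_cases hz : z ∈ A
    · simp only [hz, if_true]
      rw [show q + 1 + fa A w.reverse = q + (fa A w.reverse + 1) by ring]
      ring
    · simp only [hz, if_false, add_zero]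
      ring

theorem TT_reverse (A : Set α) (x : α) (e : ℕ) (r : List α) :
    TT A x e 0 r.reverse = SS x (fun t => fa A t ^ e) r := by
  induction r with
  | nil => simp [TT, SS]
  | cons y r ih =>
    rw [List.reverse_cons, TT_snoc, ih, SS, List.reverse_reverse, zero_add]

/-- `Fn` for functions given on reversed words -/
def FnR (F : List α → ℤ) : Prop := Fn (fun w => F w.reverse)

theorem FnR.add {F G : List α → ℤ} (hF : FnR F) (hG : FnR G) : FnR (fun r => F r + G r) :=
  Fn.add hF hG

theorem FnR.sub {F G : List α → ℤ} (hF : FnR F) (hG : FnR G) : FnR (fun r => F r - G r) :=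
  Fn.sub hF hG

theorem FnR.mul {F G : List α → ℤ} (hF : FnR F) (hG : FnR G) : FnR (fun r => F r * G r) :=
  Fn.mul hF hG

theorem FnR.const (k : ℤ) : FnR (fun _ : List α => k) := Fn.const k

theorem FnR.of_mul {F : List α → ℤ} (k : ℕ) (hk : 0 < k) (hF : FnR (fun r => k * F r)) : FnR F :=
  Fn.of_mul k hk hF

theorem FnR_SS [Finite α] (A : Set α) (x : α) (hx : x ∉ A) (e : ℕ) :
    FnR (fun r => SS x (fun t => fa A t ^ e) r) := by
  have h := Fn_TT A x hx e
  have h2 : (fun w : List α => SS x (fun t => fa A t ^ e) w.reverse) =
      fun w => TT A x e 0 w := by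
    funext w
    rw [← TT_reverse, List.reverse_reverse]
  unfold FnR
  rw [h2]; exact h

theorem SS_add (x : α) (P Q : List α → ℤ) (r : List α) :
    SS x (fun t => P t + Q t) r = SS x P r + SS x Q r := by
  induction r with
  | nil => simp [SS]
  | cons y r ih => simp only [SS, ih]; split_ifs <;> ring

theorem SS_smul (x : α) (k : ℤ) (P : List α → ℤ) (r : List α) :
    SS x (fun t => k * P t) r = k * SS x P r := by
  induction r with
  | nil => simp [SS]
  | cons y r ih => simp only [SS, ih]; split_ifs <;> ring

theorem SS_congr (x : α) {P Q : List α → ℤ} (h : ∀ t, P t = Q t) (r : List α) :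
    SS x P r = SS x Q r := by
  have : P = Q := funext h
  rw [this]

theorem fa_singleton (a : α) (r : List α) : fa {a} r = cn [a] r := by
  induction r with
  | nil => simp [fa, cn, SS]
  | cons y r ih =>
    have h : cn [a] (y :: r) = cn [a] r + if y = a then 1 else 0 := by simp [cn, SS]
    rw [fa, ih, h]; simp

theorem fa_pair (a b : α) (hab : a ≠ b) (r : List α) : fa {a, b} r = cn [a] r + cn [b] r := by
  induction r with
  | nil => simp [fa, cn, SS]
  | cons y r ih =>
    have h : ∀ a, cn [a] (y :: r) = cn [a] r + if y = a then 1 else 0 := by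
      intro a; simp [cn, SS]
    rw [fa, ih, h, h]
    by_cases h1 : y = a
    · subst h1; simp [hab]; ring
    · by_cases h2 : y = b
      · subst h2; simp [h1]; ring
      · simp [h1, h2]

/-- letters -/
theorem FnR_cn1 [Finite α] (a : α) : FnR (fun r => cn [a] r) := by
  have h := FnR_SS (∅ : Set α) a (by simp) 0
  simpa [cn] using h

theorem FnR_pow1 [Finite α] (x a : α) (hx : x ≠ a) (e : ℕ) :
    FnR (fun r => SS x (fun t => cn [a] t ^ e) r) := by
  have h := FnR_SS ({a} : Set α) x (by simpa using hx) e
  simpa [fa_singleton] using h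

/-- the symmetric degree two function -/
theorem FnR_sym [Finite α] (x a b : α) (ha : x ≠ a) (hb : x ≠ b) :
    FnR (fun r => SS x (fun t => cn [a] t * cn [b] t) r) := by
  by_cases hab : a = b
  · subst hab
    have h := FnR_pow1 x a ha 2
    simpa [pow_two] using h
  · have h1 := FnR_SS ({a, b} : Set α) x (by simp [ha, hb]) 2
    have h2 := FnR_pow1 x a ha 2
    have h3 := FnR_pow1 x b hb 2
    apply FnR.of_mul 2 (by norm_num)
    have h4 := (h1.sub h2).sub h3
    have h5 : (fun r : List α => ((2 : ℕ) : ℤ) * SS x (fun t => cn [a] t * cn [b] t) r) =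
        fun r => SS x (fun t => fa {a, b} t ^ 2) r - SS x (fun t => cn [a] t ^ 2) r -
          SS x (fun t => cn [b] t ^ 2) r := by
      funext r
      have h6 : SS x (fun t => fa {a, b} t ^ 2) r =
          SS x (fun t => (cn [a] t ^ 2 + cn [b] t ^ 2) + 2 * (cn [a] t * cn [b] t)) r := by
        apply SS_congr
        intro t
        rw [fa_pair a b hab]; ring
      rw [h6, SS_add, SS_add, SS_smul]
      push_cast; ring
    rw [h5]; exact h4

theorem cn_cons (x : α) (u : List α) (y : α) (r : List α) :
    cn (x :: u) (y :: r) = cn (x :: u) r + if y = x then cn u r else 0 := rfl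

theorem cn_nil_left (r : List α) : cn ([] : List α) r = 1 := rfl

theorem cn_nil_right (x : α) (u : List α) : cn (x :: u) ([] : List α) = 0 := rfl

theorem two_cn_same (x : α) (r : List α) :
    2 * cn [x, x] r = cn [x] r * cn [x] r - cn [x] r := by
  induction r with
  | nil => simp [cn_nil_right]
  | cons y r ih =>
    rw [cn_cons, cn_cons]
    split_ifs
    · rw [cn_nil_left]; linarith
    · linarith

theorem mul_cn_ne (x a : α) (h : x ≠ a) (r : List α) :
    cn [a] r * cn [x] r = cn [a, x] r + cn [x, a] r := by
  induction r with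
  | nil => simp [cn_nil_right]
  | cons y r ih =>
    rw [cn_cons, cn_cons, cn_cons, cn_cons]
    by_cases h1 : y = a
    · subst h1
      have h2 : y ≠ x := fun e => h e.symm
      simp only [if_true, h2, if_false, cn_nil_left]
      linarith
    · by_cases h2 : y = x
      · subst h2
        simp only [if_true, h1, if_false, cn_nil_left]
        linarith
      · simp only [h1, h2, if_false]
        linarith

/-- words of length two -/
theorem FnR_cn2 [Finite α] (y x : α) : FnR (fun r => cn [y, x] r) := by
  by_cases h : y = x
  · subst h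
    apply FnR.of_mul 2 (by norm_num)
    have h1 := ((FnR_cn1 y).mul (FnR_cn1 y)).sub (FnR_cn1 y)
    have h2 : (fun r : List α => ((2 : ℕ) : ℤ) * cn [y, y] r) =
        fun r => cn [y] r * cn [y] r - cn [y] r := by
      funext r; push_cast; exact two_cn_same y r
    rw [h2]; exact h1
  · have h1 := FnR_pow1 y x h 1
    simpa [cn] using h1

/-- the key identity: `f_a f_{bc} = S_c(f_a f_b) + f_{bca}` for `a ≠ c` -/
theorem key_identity (a b c : α) (h : a ≠ c) (r : List α) :
    cn [a, c, b] r = cn [a] r * cn [c, b] r - SS c (fun t => cn [a] t * cn [b] t) r := by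
  induction r with
  | nil => simp [cn_nil_right, SS]
  | cons y r ih =>
    rw [cn_cons, cn_cons, cn_cons, SS]
    by_cases h1 : y = a
    · subst h1
      simp only [if_true, h, if_false, cn_nil_left]
      linarith
    · by_cases h2 : y = c
      · subst h2
        simp only [if_true, h1, if_false]
        rw [ih]; ring
      · simp only [h1, h2, if_false]
        rw [ih]; ring

theorem FnR_cn3_a [Finite α] (a b c : α) (h : c ≠ a) (h' : c ≠ b) :
    FnR (fun r => cn [a, c, b] r) := by
  have h1 := ((FnR_cn1 a).mul (FnR_cn2 c b)).sub (FnR_sym c a b h h')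
  have h2 : (fun r : List α => cn [a, c, b] r) =
      fun r => cn [a] r * cn [c, b] r - SS c (fun t => cn [a] t * cn [b] t) r := by
    funext r; exact key_identity a b c (Ne.symm h) r
  rw [h2]; exact h1

/-- the word `x x z` -/
theorem FnR_cn3_b [Finite α] (z x : α) (h : z ≠ x) : FnR (fun r => cn [z, x, x] r) := by
  apply FnR.of_mul 2 (by norm_num)
  have h1 := (FnR_pow1 z x h 2).sub (FnR_pow1 z x h 1)
  have h2 : (fun r : List α => ((2 : ℕ) : ℤ) * cn [z, x, x] r) =
      fun r => SS z (fun t => cn [x] t ^ 2) r - SS z (fun t => cn [x] t ^ 1) r := by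
    funext r
    have h3 : SS z (fun t => cn [x] t ^ 2) r =
        SS z (fun t => 2 * cn [x, x] t + cn [x] t ^ 1) r := by
      apply SS_congr
      intro t
      have := two_cn_same x t
      rw [this]; ring
    rw [h3, SS_add, SS_smul]
    push_cast
    change 2 * SS z (cn [x, x]) r = _
    ring
  rw [h2]; exact h1

/-- the identity used for the word `x z z` -/
theorem identity_c (z x : α) (h : z ≠ x) (r : List α) :
    2 * cn [z, z, x] r = cn [z] r * cn [z, x] r - cn [z, x, z] r - cn [z, x] r := by
  induction r with
  | nil => simp [cn_nil_right]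
  | cons y r ih =>
    rw [cn_cons z [z, x], cn_cons z [], cn_cons z [x], cn_cons z [x, z]]
    by_cases h1 : y = z
    · subst h1
      simp only [if_true, cn_nil_left]
      have := mul_cn_ne y x h r
      nlinarith [this, ih, mul_comm (cn [y] r) (cn [x] r)]
    · simp only [h1, if_false]
      linarith

theorem FnR_cn3_c [Finite α] (z x : α) (h : z ≠ x) : FnR (fun r => cn [z, z, x] r) := by
  apply FnR.of_mul 2 (by norm_num)
  have h1 := (((FnR_cn1 z).mul (FnR_cn2 z x)).sub
    (FnR_cn3_a z z x (Ne.symm h) (Ne.symm h))).sub (FnR_cn2 z x)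
  have h2 : (fun r : List α => ((2 : ℕ) : ℤ) * cn [z, z, x] r) =
      fun r => cn [z] r * cn [z, x] r - cn [z, x, z] r - cn [z, x] r := by
    funext r
    push_cast
    exact identity_c z x h r
  rw [h2]; exact h1

theorem identity_d (x : α) (r : List α) :
    6 * cn [x, x, x] r = cn [x] r * cn [x] r * cn [x] r - 3 * (cn [x] r * cn [x] r) +
      2 * cn [x] r := by
  induction r with
  | nil => simp [cn_nil_right]
  | cons y r ih =>
    rw [cn_cons x [x, x], cn_cons x []]
    by_cases h1 : y = x
    · subst h1
      simp only [if_true, cn_nil_left]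
      have := two_cn_same y r
      nlinarith [this, ih]
    · simp only [h1, if_false]
      linarith

theorem FnR_cn3_d [Finite α] (x : α) : FnR (fun r => cn [x, x, x] r) := by
  apply FnR.of_mul 6 (by norm_num)
  have hx := FnR_cn1 x
  have h1 := (((hx.mul hx).mul hx).sub ((FnR.const 3).mul (hx.mul hx))).add
    ((FnR.const 2).mul hx)
  have h2 : (fun r : List α => ((6 : ℕ) : ℤ) * cn [x, x, x] r) =
      fun r => cn [x] r * cn [x] r * cn [x] r - 3 * (cn [x] r * cn [x] r) + 2 * cn [x] r := by
    funext r
    push_cast
    exact identity_d x r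
  rw [h2]; exact h1

/-- all scattered subword counts of length at most three -/
theorem FnR_cn [Finite α] (u : List α) (hu : u.length ≤ 3) : FnR (fun r => cn u r) := by
  match u, hu with
  | [], _ => exact FnR.const 1
  | [a], _ => exact FnR_cn1 a
  | [a, b], _ => exact FnR_cn2 a b
  | [a, c, b], _ =>
    by_cases h1 : c = a
    · by_cases h2 : c = b
      · subst h1; subst h2; exact FnR_cn3_d _
      · subst h1; exact FnR_cn3_c _ _ h2
    · by_cases h2 : c = b
      · subst h2; exact FnR_cn3_b _ _ (Ne.symm h1)
      · exact FnR_cn3_a _ _ _ h1 h2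
  | _ :: _ :: _ :: _ :: _, h =>
    simp only [List.length_cons] at h
    omega

end GSH329
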